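import Mathlib
import Vale.Agent.Lib.P037.Defs

/-!
Symmetry transfer for removal bounds of `2 x 2` patterns: reversing the row order,
reversing the column order and complementing all entries carry a removal bound for a
pattern `H` to the transformed pattern, with the same constants.  Consequently a bound
for `I_2 = [[1,0],[0,1]]` and for the corner pattern `[[1,0],[0,0]]` gives the same bound
for all ten `2 x 2` patterns with two distinct rows and two distinct columns.
-/

namespace Vale.Agent.Lib.P037.helper20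

open Finset Vale.Agent.Lib.P037

/-- The removal bound with exponent `K` and constant `C` for the pattern `H`. -/
def Removal (H : Fin 2 → Fin 2 → Bool) (K : ℕ) (C : ℝ) : Prop :=
  ∀ (n : ℕ) (A : BMat n) (ε : ℝ), 0 < ε → ε < 1 →
    (∀ B : BMat n, IsFree H B → ε * (n : ℝ) ^ 2 ≤ (Vale.Agent.Lib.P037.hammingDist A B : ℝ)) →
    ε ^ K * (n : ℝ) ^ 4 ≤ C * (numCopies H A : ℝ)

/-- Abstract transfer along an involution of host matrices. -/
theorem removal_transfer {H H' : Fin 2 → Fin 2 → Bool} {K : ℕ} {C : ℝ}
    (T : ∀ n : ℕ, BMat n → BMat n)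
    (hT : ∀ (n : ℕ) (A : BMat n), T n (T n A) = A)
    (hcount : ∀ (n : ℕ) (A : BMat n), numCopies H' A = numCopies H (T n A))
    (hfree : ∀ (n : ℕ) (B : BMat n), IsFree H (T n B) → IsFree H' B)
    (hdist : ∀ (n : ℕ) (A B : BMat n),
      Vale.Agent.Lib.P037.hammingDist (T n A) (T n B) = Vale.Agent.Lib.P037.hammingDist A B)
    (h : Removal H K C) : Removal H' K C := by
  intro n A ε hε hε1 hfar
  rw [hcount]
  apply h n (T n A) ε hε hε1
  intro B hB
  have h1 : IsFree H' (T n B) := hfree n (T n B) (by rw [hT]; exact hB)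
  have h2 := hfar (T n B) h1
  rw [← hdist, hT] at h2
  exact h2

/-! ### Reversing the row order -/

/-- Host matrix with the row order reversed. -/
def rowRevM {n : ℕ} (A : BMat n) : BMat n := fun i c => A (Fin.rev i) c

theorem rowRevM_rowRevM {n : ℕ} (A : BMat n) : rowRevM (rowRevM A) = A := by
  funext i c
  simp [rowRevM]

theorem copy_rowRev {n : ℕ} (H : Fin 2 → Fin 2 → Bool) (A : BMat n) (i j c d : Fin n) :
    IsCopy (fun a b => H (Fin.rev a) b) A i j c d ↔
      IsCopy H (rowRevM A) (Fin.rev j) (Fin.rev i) c d := by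
  have e0 : Fin.rev (0 : Fin 2) = 1 := by decide
  have e1 : Fin.rev (1 : Fin 2) = 0 := by decide
  unfold IsCopy rowRevM
  simp only [e0, e1, Fin.rev_rev, Fin.rev_lt_rev]
  tauto

theorem numCopies_rowRev {n : ℕ} (H : Fin 2 → Fin 2 → Bool) (A : BMat n) :
    numCopies (fun a b => H (Fin.rev a) b) A = numCopies H (rowRevM A) := by
  unfold numCopies copySet
  apply Finset.card_nbij' (fun q => (Fin.rev q.2.1, Fin.rev q.1, q.2.2.1, q.2.2.2))
    (fun q => (Fin.rev q.2.1, Fin.rev q.1, q.2.2.1, q.2.2.2))
  · intro q hq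
    have hq' := (Finset.mem_filter.mp (Finset.mem_coe.mp hq)).2
    exact Finset.mem_coe.mpr (Finset.mem_filter.mpr
      ⟨Finset.mem_univ _, (copy_rowRev H A _ _ _ _).mp hq'⟩)
  · intro q hq
    have hq' := (Finset.mem_filter.mp (Finset.mem_coe.mp hq)).2
    refine Finset.mem_coe.mpr (Finset.mem_filter.mpr ⟨Finset.mem_univ _, ?_⟩)
    rw [copy_rowRev]
    simpa using hq'
  · intro q _
    simp
  · intro q _
    simp

theorem free_rowRev {n : ℕ} (H : Fin 2 → Fin 2 → Bool) (B : BMat n)
    (h : IsFree H (rowRevM B)) : IsFree (fun a b => H (Fin.rev a) b) B := by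
  intro i j c d hc
  exact h _ _ _ _ ((copy_rowRev H B i j c d).mp hc)

theorem dist_rowRev {n : ℕ} (A B : BMat n) :
    Vale.Agent.Lib.P037.hammingDist (rowRevM A) (rowRevM B) =
      Vale.Agent.Lib.P037.hammingDist A B := by
  unfold Vale.Agent.Lib.P037.hammingDist rowRevM
  apply Finset.card_nbij' (fun p => (Fin.rev p.1, p.2)) (fun p => (Fin.rev p.1, p.2))
  · intro p hp
    simpa using hp
  · intro p hp
    simpa using hp
  · intro p _
    simp
  · intro p _
    simp

theorem removal_rowRev {H : Fin 2 → Fin 2 → Bool} {K : ℕ} {C : ℝ} (h : Removal H K C) :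
    Removal (fun a b => H (Fin.rev a) b) K C :=
  removal_transfer (fun _ A => rowRevM A) (fun _ A => rowRevM_rowRevM A)
    (fun _ A => numCopies_rowRev H A) (fun _ B => free_rowRev H B)
    (fun _ A B => dist_rowRev A B) h

/-! ### Reversing the column order -/

/-- Host matrix with the column order reversed. -/
def colRevM {n : ℕ} (A : BMat n) : BMat n := fun i c => A i (Fin.rev c)

theorem colRevM_colRevM {n : ℕ} (A : BMat n) : colRevM (colRevM A) = A := by
  funext i c
  simp [colRevM]

theorem copy_colRev {n : ℕ} (H : Fin 2 → Fin 2 → Bool) (A : BMat n) (i j c d : Fin n) :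
    IsCopy (fun a b => H a (Fin.rev b)) A i j c d ↔
      IsCopy H (colRevM A) i j (Fin.rev d) (Fin.rev c) := by
  have e0 : Fin.rev (0 : Fin 2) = 1 := by decide
  have e1 : Fin.rev (1 : Fin 2) = 0 := by decide
  unfold IsCopy colRevM
  simp only [e0, e1, Fin.rev_rev, Fin.rev_lt_rev]
  tauto

theorem numCopies_colRev {n : ℕ} (H : Fin 2 → Fin 2 → Bool) (A : BMat n) :
    numCopies (fun a b => H a (Fin.rev b)) A = numCopies H (colRevM A) := by
  unfold numCopies copySet
  apply Finset.card_nbij' (fun q => (q.1, q.2.1, Fin.rev q.2.2.2, Fin.rev q.2.2.1))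
    (fun q => (q.1, q.2.1, Fin.rev q.2.2.2, Fin.rev q.2.2.1))
  · intro q hq
    have hq' := (Finset.mem_filter.mp (Finset.mem_coe.mp hq)).2
    exact Finset.mem_coe.mpr (Finset.mem_filter.mpr
      ⟨Finset.mem_univ _, (copy_colRev H A _ _ _ _).mp hq'⟩)
  · intro q hq
    have hq' := (Finset.mem_filter.mp (Finset.mem_coe.mp hq)).2
    refine Finset.mem_coe.mpr (Finset.mem_filter.mpr ⟨Finset.mem_univ _, ?_⟩)
    rw [copy_colRev]
    simpa using hq'
  · intro q _
    simp
  · intro q _
    simp

theorem free_colRev {n : ℕ} (H : Fin 2 → Fin 2 → Bool) (B : BMat n)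
    (h : IsFree H (colRevM B)) : IsFree (fun a b => H a (Fin.rev b)) B := by
  intro i j c d hc
  exact h _ _ _ _ ((copy_colRev H B i j c d).mp hc)

theorem dist_colRev {n : ℕ} (A B : BMat n) :
    Vale.Agent.Lib.P037.hammingDist (colRevM A) (colRevM B) =
      Vale.Agent.Lib.P037.hammingDist A B := by
  unfold Vale.Agent.Lib.P037.hammingDist colRevM
  apply Finset.card_nbij' (fun p => (p.1, Fin.rev p.2)) (fun p => (p.1, Fin.rev p.2))
  · intro p hp
    simpa using hp
  · intro p hp
    simpa using hp
  · intro p _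
    simp
  · intro p _
    simp

theorem removal_colRev {H : Fin 2 → Fin 2 → Bool} {K : ℕ} {C : ℝ} (h : Removal H K C) :
    Removal (fun a b => H a (Fin.rev b)) K C :=
  removal_transfer (fun _ A => colRevM A) (fun _ A => colRevM_colRevM A)
    (fun _ A => numCopies_colRev H A) (fun _ B => free_colRev H B)
    (fun _ A B => dist_colRev A B) h

/-! ### Complementing all entries -/

/-- Entrywise complement of a host matrix. -/
def cmplM {n : ℕ} (A : BMat n) : BMat n := fun i c => !(A i c)

theorem cmplM_cmplM {n : ℕ} (A : BMat n) : cmplM (cmplM A) = A := by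
  funext i c
  simp [cmplM]

theorem copy_cmpl {n : ℕ} (H : Fin 2 → Fin 2 → Bool) (A : BMat n) (i j c d : Fin n) :
    IsCopy (fun a b => !(H a b)) A i j c d ↔ IsCopy H (cmplM A) i j c d := by
  have key : ∀ a h : Bool, (a = !h) ↔ ((!a) = h) := by decide
  unfold IsCopy cmplM
  simp only [key]

theorem numCopies_cmpl {n : ℕ} (H : Fin 2 → Fin 2 → Bool) (A : BMat n) :
    numCopies (fun a b => !(H a b)) A = numCopies H (cmplM A) := by
  unfold numCopies copySet
  simp only [copy_cmpl]

theorem free_cmpl {n : ℕ} (H : Fin 2 → Fin 2 → Bool) (B : BMat n)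
    (h : IsFree H (cmplM B)) : IsFree (fun a b => !(H a b)) B := by
  intro i j c d hc
  exact h _ _ _ _ ((copy_cmpl H B i j c d).mp hc)

theorem dist_cmpl {n : ℕ} (A B : BMat n) :
    Vale.Agent.Lib.P037.hammingDist (cmplM A) (cmplM B) =
      Vale.Agent.Lib.P037.hammingDist A B := by
  unfold Vale.Agent.Lib.P037.hammingDist cmplM
  congr 1
  apply Finset.filter_congr
  intro p _
  cases A p.1 p.2 <;> cases B p.1 p.2 <;> simp

theorem removal_cmpl {H : Fin 2 → Fin 2 → Bool} {K : ℕ} {C : ℝ} (h : Removal H K C) :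
    Removal (fun a b => !(H a b)) K C :=
  removal_transfer (fun _ A => cmplM A) (fun _ A => cmplM_cmplM A)
    (fun _ A => numCopies_cmpl H A) (fun _ B => free_cmpl H B)
    (fun _ A B => dist_cmpl A B) h

/-! ### All ten patterns with two distinct rows and two distinct columns -/

/-- The corner pattern `[[1, 0], [0, 0]]`. -/
def patL : Fin 2 → Fin 2 → Bool := fun a b => decide (a = 0 ∧ b = 0)

/-- Two `2 x 2` patterns with the same four entries are equal. -/
theorem pat_ext {H H' : Fin 2 → Fin 2 → Bool} (h00 : H 0 0 = H' 0 0) (h01 : H 0 1 = H' 0 1)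
    (h10 : H 1 0 = H' 1 0) (h11 : H 1 1 = H' 1 1) : H = H' := by
  funext a b
  fin_cases a <;> fin_cases b
  · exact h00
  · exact h01
  · exact h10
  · exact h11

/-- A removal bound for `I_2` and for the corner pattern gives the same bound for every
`2 x 2` pattern with two distinct rows and two distinct columns. -/
theorem removal_all (K : ℕ) (C : ℝ) (hI : Removal patI2 K C) (hL : Removal patL K C)
    (H : Fin 2 → Fin 2 → Bool) (hrow : H 0 ≠ H 1)
    (hcol : (fun a => H a 0) ≠ (fun a => H a 1)) : Removal H K C := by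
  have hrow' : ¬ (H 0 0 = H 1 0 ∧ H 0 1 = H 1 1) := by
    rintro ⟨h1, h2⟩
    apply hrow
    funext b
    fin_cases b
    · exact h1
    · exact h2
  have hcol' : ¬ (H 0 0 = H 0 1 ∧ H 1 0 = H 1 1) := by
    rintro ⟨h1, h2⟩
    apply hcol
    funext a
    fin_cases a
    · exact h1
    · exact h2
  rcases Bool.eq_false_or_eq_true (H 0 0) with h00 | h00 <;>
    rcases Bool.eq_false_or_eq_true (H 0 1) with h01 | h01 <;>
    rcases Bool.eq_false_or_eq_true (H 1 0) with h10 | h10 <;>
    rcases Bool.eq_false_or_eq_true (H 1 1) with h11 | h11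
  -- 1111
  · exact absurd ⟨by rw [h00, h10], by rw [h01, h11]⟩ hrow'
  -- 1110
  · have e : H = (fun a b => !((fun a b => (fun a b => patL a (Fin.rev b)) (Fin.rev a) b) a b)) :=
      pat_ext (by rw [h00]; decide) (by rw [h01]; decide) (by rw [h10]; decide)
        (by rw [h11]; decide)
    rw [e]
    exact removal_cmpl (removal_rowRev (removal_colRev hL))
  -- 1101
  · have e : H = (fun a b => !((fun a b => patL (Fin.rev a) b) a b)) :=
      pat_ext (by rw [h00]; decide) (by rw [h01]; decide) (by rw [h10]; decide)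
        (by rw [h11]; decide)
    rw [e]
    exact removal_cmpl (removal_rowRev hL)
  -- 1100
  · exact absurd ⟨by rw [h00, h01], by rw [h10, h11]⟩ hcol'
  -- 1011
  · have e : H = (fun a b => !((fun a b => patL a (Fin.rev b)) a b)) :=
      pat_ext (by rw [h00]; decide) (by rw [h01]; decide) (by rw [h10]; decide)
        (by rw [h11]; decide)
    rw [e]
    exact removal_cmpl (removal_colRev hL)
  -- 1010
  · exact absurd ⟨by rw [h00, h10], by rw [h01, h11]⟩ hrow'
  -- 1001
  · have e : H = patI2 :=
      pat_ext (by rw [h00]; decide) (by rw [h01]; decide) (by rw [h10]; decide)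
        (by rw [h11]; decide)
    rw [e]
    exact hI
  -- 1000
  · have e : H = patL :=
      pat_ext (by rw [h00]; decide) (by rw [h01]; decide) (by rw [h10]; decide)
        (by rw [h11]; decide)
    rw [e]
    exact hL
  -- 0111
  · have e : H = (fun a b => !(patL a b)) :=
      pat_ext (by rw [h00]; decide) (by rw [h01]; decide) (by rw [h10]; decide)
        (by rw [h11]; decide)
    rw [e]
    exact removal_cmpl hL
  -- 0110
  · have e : H = (fun a b => !(patI2 a b)) :=
      pat_ext (by rw [h00]; decide) (by rw [h01]; decide) (by rw [h10]; decide)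
        (by rw [h11]; decide)
    rw [e]
    exact removal_cmpl hI
  -- 0101
  · exact absurd ⟨by rw [h00, h10], by rw [h01, h11]⟩ hrow'
  -- 0100
  · have e : H = (fun a b => patL a (Fin.rev b)) :=
      pat_ext (by rw [h00]; decide) (by rw [h01]; decide) (by rw [h10]; decide)
        (by rw [h11]; decide)
    rw [e]
    exact removal_colRev hL
  -- 0011
  · exact absurd ⟨by rw [h00, h01], by rw [h10, h11]⟩ hcol'
  -- 0010
  · have e : H = (fun a b => patL (Fin.rev a) b) :=
      pat_ext (by rw [h00]; decide) (by rw [h01]; decide) (by rw [h10]; decide)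
        (by rw [h11]; decide)
    rw [e]
    exact removal_rowRev hL
  -- 0001
  · have e : H = (fun a b => (fun a b => patL a (Fin.rev b)) (Fin.rev a) b) :=
      pat_ext (by rw [h00]; decide) (by rw [h01]; decide) (by rw [h10]; decide)
        (by rw [h11]; decide)
    rw [e]
    exact removal_rowRev (removal_colRev hL)
  -- 0000
  · exact absurd ⟨by rw [h00, h10], by rw [h01, h11]⟩ hrow'

end Vale.Agent.Lib.P037.helper20
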