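import Mathlib

/-!
A box (blow-up) counting inequality.  For a relation `P` on four finite ground sets,
the density of the quadruples of tuples `(I, J, U, V)` all of whose selections satisfy `P`
is at least the density of `P` raised to the product of the four tuple lengths.
It is proved by four convexity rounds, one per coordinate.
-/

namespace Vale.Agent.Lib.P037.helper20

open Finset

set_option linter.unusedSimpArgs false

/-- Counting a filter on a product type by summing over the second coordinate. -/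
theorem card_filter_prod_right {X Y : Type*} [Fintype X] [Fintype Y] (P : X → Y → Prop)
    [∀ x y, Decidable (P x y)] :
    (univ.filter fun z : X × Y => P z.1 z.2).card = ∑ y, (univ.filter fun x : X => P x y).card := by
  simp only [Finset.card_filter]
  rw [Fintype.sum_prod_type_right]

/-- Counting a filter on a product type by summing over the first coordinate. -/
theorem card_filter_prod_left {X Y : Type*} [Fintype X] [Fintype Y] (P : X → Y → Prop)
    [∀ x y, Decidable (P x y)] :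
    (univ.filter fun z : Y × X => P z.2 z.1).card = ∑ y, (univ.filter fun x : X => P x y).card := by
  simp only [Finset.card_filter]
  rw [Fintype.sum_prod_type]

/-- The number of tuples all of whose entries satisfy `p`. -/
theorem card_pi_forall {X : Type*} [Fintype X] [DecidableEq X] (p : X → Prop) [DecidablePred p]
    (t : ℕ) :
    (univ.filter fun I : Fin t → X => ∀ s, p (I s)).card = (univ.filter p).card ^ t := by
  have h : (univ.filter fun I : Fin t → X => ∀ s, p (I s)) =
      Fintype.piFinset (fun _ : Fin t => univ.filter p) := by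
    ext I
    simp [Fintype.mem_piFinset]
  rw [h, Fintype.card_piFinset_const]

/-- One convexity round, in counting form. -/
theorem round_count {X Y : Type*} [Fintype X] [Fintype Y] [DecidableEq X] (P : X → Y → Prop)
    [∀ x y, Decidable (P x y)] (t : ℕ) :
    ((univ.filter fun z : X × Y => P z.1 z.2).card : ℝ) ^ (t + 1) ≤
      (Fintype.card Y : ℝ) ^ t *
        ((univ.filter fun z : Y × (Fin (t + 1) → X) => ∀ s, P (z.2 s) z.1).card : ℝ) := by
  rw [card_filter_prod_right, card_filter_prod_left (fun (I : Fin (t + 1) → X) y => ∀ s, P (I s) y)]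
  have h2 : ∀ y, (univ.filter fun I : Fin (t + 1) → X => ∀ s, P (I s) y).card =
      (univ.filter fun x => P x y).card ^ (t + 1) := fun y => card_pi_forall (fun x => P x y) (t + 1)
  simp only [h2]
  push_cast
  have h := pow_sum_le_card_mul_sum_pow (s := (univ : Finset Y))
    (f := fun y => ((univ.filter fun x : X => P x y).card : ℝ)) (fun i _ => Nat.cast_nonneg _) t
  simpa using h

/-- One convexity round, in density form. -/
theorem round_density {X Y : Type*} [Fintype X] [Fintype Y] [DecidableEq X] (P : X → Y → Prop)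
    [∀ x y, Decidable (P x y)] (t : ℕ) (ht : 0 < t) (x y : ℝ) (hx : 0 < x) (hy : 0 < y)
    (hY : (Fintype.card Y : ℝ) = y) :
    (((univ.filter fun z : X × Y => P z.1 z.2).card : ℝ) / (x * y)) ^ t ≤
      ((univ.filter fun z : Y × (Fin t → X) => ∀ s, P (z.2 s) z.1).card : ℝ) / (x ^ t * y) := by
  obtain ⟨t, rfl⟩ : ∃ t', t = t' + 1 := ⟨t - 1, by omega⟩
  have h := round_count P t
  rw [hY] at h
  rw [div_pow, div_le_div_iff₀ (by positivity) (by positivity)]
  calc ((univ.filter fun z : X × Y => P z.1 z.2).card : ℝ) ^ (t + 1) * (x ^ (t + 1) * y)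
      ≤ (y ^ t * ((univ.filter fun z : Y × (Fin (t + 1) → X) => ∀ s, P (z.2 s) z.1).card : ℝ)) *
          (x ^ (t + 1) * y) := by gcongr
    _ = ((univ.filter fun z : Y × (Fin (t + 1) → X) => ∀ s, P (z.2 s) z.1).card : ℝ) *
          (x * y) ^ (t + 1) := by ring

/-- Transport of a filter count along an equivalence. -/
theorem card_filter_equiv {S T : Type*} [Fintype S] [Fintype T] (e : S ≃ T) (p : S → Prop)
    (q : T → Prop) [DecidablePred p] [DecidablePred q] (h : ∀ z, p z ↔ q (e z)) :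
    (univ.filter p).card = (univ.filter q).card :=
  Finset.card_equiv e (by simp [h])

/-- The box inequality for four coordinates over `Fin n`. -/
theorem box4 {n : ℕ} (hn : 0 < n) (P0 : Fin n → Fin n → Fin n → Fin n → Prop)
    [∀ x y u v, Decidable (P0 x y u v)] (a a' b b' : ℕ) (ha : 0 < a) (ha' : 0 < a')
    (hb : 0 < b) (hb' : 0 < b') :
    (((univ.filter fun z : Fin n × Fin n × Fin n × Fin n =>
        P0 z.1 z.2.1 z.2.2.1 z.2.2.2).card : ℝ) / (n : ℝ) ^ 4) ^ (a * a' * b * b') ≤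
      ((univ.filter fun z : (((Fin a → Fin n) × (Fin a' → Fin n)) × (Fin b → Fin n)) ×
          (Fin b' → Fin n) =>
          ∀ q p t s, P0 (z.1.1.1 s) (z.1.1.2 t) (z.1.2 p) (z.2 q)).card : ℝ) /
        (n : ℝ) ^ (a + a' + b + b') := by
  have hN : (0 : ℝ) < (n : ℝ) := by exact_mod_cast hn
  -- round 1
  have r1 := round_density (X := Fin n) (Y := Fin n × (Fin n × Fin n))
    (fun x y => P0 x y.1 y.2.1 y.2.2) a ha (n : ℝ) ((n : ℝ) ^ 3) hN (by positivity)
    (by
      simp only [Fintype.card_prod, Fintype.card_fin, Fintype.card_pi, Finset.prod_const,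
        Finset.card_univ, Nat.cast_mul, Nat.cast_pow]
      ring)
  have e1 : (univ.filter fun z : (Fin n × (Fin n × Fin n)) × (Fin a → Fin n) =>
      ∀ s, P0 (z.2 s) z.1.1 z.1.2.1 z.1.2.2).card =
      (univ.filter fun z : Fin n × ((Fin n × Fin n) × (Fin a → Fin n)) =>
      ∀ s, P0 (z.2.2 s) z.1 z.2.1.1 z.2.1.2).card :=
    card_filter_equiv (Equiv.prodAssoc (Fin n) (Fin n × Fin n) (Fin a → Fin n)) _ _
      (fun z => Iff.rfl)
  -- round 2
  have r2 := round_density (X := Fin n) (Y := (Fin n × Fin n) × (Fin a → Fin n))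
    (fun y w => ∀ s, P0 (w.2 s) y w.1.1 w.1.2) a' ha' (n : ℝ) ((n : ℝ) ^ 2 * (n : ℝ) ^ a) hN
    (by positivity) (by
      simp only [Fintype.card_prod, Fintype.card_fin, Fintype.card_pi, Finset.prod_const,
        Finset.card_univ, Nat.cast_mul, Nat.cast_pow]
      ring)
  have e2 : (univ.filter fun z : ((Fin n × Fin n) × (Fin a → Fin n)) × (Fin a' → Fin n) =>
      ∀ t, ∀ s, P0 (z.1.2 s) (z.2 t) z.1.1.1 z.1.1.2).card =
      (univ.filter fun z : Fin n × (Fin n × ((Fin a → Fin n) × (Fin a' → Fin n))) =>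
      ∀ t, ∀ s, P0 (z.2.2.1 s) (z.2.2.2 t) z.1 z.2.1).card :=
    card_filter_equiv ((Equiv.prodAssoc (Fin n × Fin n) (Fin a → Fin n) (Fin a' → Fin n)).trans
      (Equiv.prodAssoc (Fin n) (Fin n) ((Fin a → Fin n) × (Fin a' → Fin n)))) _ _
      (fun z => Iff.rfl)
  -- round 3
  have r3 := round_density (X := Fin n) (Y := Fin n × ((Fin a → Fin n) × (Fin a' → Fin n)))
    (fun u w => ∀ t, ∀ s, P0 (w.2.1 s) (w.2.2 t) u w.1) b hb (n : ℝ)
    ((n : ℝ) * ((n : ℝ) ^ a * (n : ℝ) ^ a')) hN (by positivity) (by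
      simp only [Fintype.card_prod, Fintype.card_fin, Fintype.card_pi, Finset.prod_const,
        Finset.card_univ, Nat.cast_mul, Nat.cast_pow])
  have e3 : (univ.filter fun z : (Fin n × ((Fin a → Fin n) × (Fin a' → Fin n))) ×
      (Fin b → Fin n) => ∀ p, ∀ t, ∀ s, P0 (z.1.2.1 s) (z.1.2.2 t) (z.2 p) z.1.1).card =
      (univ.filter fun z : Fin n × (((Fin a → Fin n) × (Fin a' → Fin n)) × (Fin b → Fin n)) =>
      ∀ p, ∀ t, ∀ s, P0 (z.2.1.1 s) (z.2.1.2 t) (z.2.2 p) z.1).card :=
    card_filter_equiv (Equiv.prodAssoc (Fin n) ((Fin a → Fin n) × (Fin a' → Fin n))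
      (Fin b → Fin n)) _ _ (fun z => Iff.rfl)
  -- round 4
  have r4 := round_density (X := Fin n)
    (Y := ((Fin a → Fin n) × (Fin a' → Fin n)) × (Fin b → Fin n))
    (fun v w => ∀ p, ∀ t, ∀ s, P0 (w.1.1 s) (w.1.2 t) (w.2 p) v) b' hb' (n : ℝ)
    ((n : ℝ) ^ a * (n : ℝ) ^ a' * (n : ℝ) ^ b) hN (by positivity) (by
      simp only [Fintype.card_prod, Fintype.card_fin, Fintype.card_pi, Finset.prod_const,
        Finset.card_univ, Nat.cast_mul, Nat.cast_pow])
  -- chain the four rounds
  rw [e1] at r1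
  rw [e2] at r2
  rw [e3] at r3
  have d1 : (n : ℝ) * (n : ℝ) ^ 3 = (n : ℝ) ^ 4 := by ring
  have d2 : (n : ℝ) ^ a * (n : ℝ) ^ 3 = (n : ℝ) * ((n : ℝ) ^ 2 * (n : ℝ) ^ a) := by ring
  have d3 : (n : ℝ) ^ a' * ((n : ℝ) ^ 2 * (n : ℝ) ^ a) =
      (n : ℝ) * ((n : ℝ) * ((n : ℝ) ^ a * (n : ℝ) ^ a')) := by ring
  have d4 : (n : ℝ) ^ b * ((n : ℝ) * ((n : ℝ) ^ a * (n : ℝ) ^ a')) =
      (n : ℝ) * ((n : ℝ) ^ a * (n : ℝ) ^ a' * (n : ℝ) ^ b) := by ring
  have d5 : (n : ℝ) ^ b' * ((n : ℝ) ^ a * (n : ℝ) ^ a' * (n : ℝ) ^ b) =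
      (n : ℝ) ^ (a + a' + b + b') := by ring
  rw [d1, d2] at r1
  rw [d3] at r2
  rw [d4] at r3
  rw [d5] at r4
  have h0 : (0 : ℝ) ≤ ((univ.filter fun z : Fin n × Fin n × Fin n × Fin n =>
        P0 z.1 z.2.1 z.2.2.1 z.2.2.2).card : ℝ) / (n : ℝ) ^ 4 := by positivity
  calc (((univ.filter fun z : Fin n × Fin n × Fin n × Fin n =>
        P0 z.1 z.2.1 z.2.2.1 z.2.2.2).card : ℝ) / (n : ℝ) ^ 4) ^ (a * a' * b * b')
      = ((((((univ.filter fun z : Fin n × Fin n × Fin n × Fin n =>
        P0 z.1 z.2.1 z.2.2.1 z.2.2.2).card : ℝ) / (n : ℝ) ^ 4) ^ a) ^ a') ^ b) ^ b' := by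
        rw [← pow_mul, ← pow_mul, ← pow_mul]
        congr 1
        ring
    _ ≤ _ := by
        refine le_trans (pow_le_pow_left₀ (by positivity) ?_ b') r4
        refine le_trans (pow_le_pow_left₀ (by positivity) ?_ b) r3
        exact le_trans (pow_le_pow_left₀ (by positivity) r1 a') r2

end Vale.Agent.Lib.P037.helper20
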