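import Mathlib
import Vale.Agent.Lib.P037.Defs

/-!
Definitions for P037 with patterns of arbitrary size `k x k`: ordered copies, their number,
freeness.  Rows and columns of the host matrix are indexed by `Fin n` in the natural order.
-/

namespace Vale.Agent.Lib.P037.helper20

open Vale.Agent.Lib.P037

/-- `(r, c)` is an ordered copy of the `k x k` pattern `H` in `A`: the row indices
`r 0 < r 1 < ...` and the column indices `c 0 < c 1 < ...` are strictly increasing and
`A (r i) (c j) = H i j` for all `i, j` (zeros are matched as well as ones). -/
def IsCopyK {k n : ℕ} (H : Fin k → Fin k → Bool) (A : BMat n) (r c : Fin k → Fin n) : Prop :=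
  StrictMono r ∧ StrictMono c ∧ ∀ i j, A (r i) (c j) = H i j

instance {k n : ℕ} (H : Fin k → Fin k → Bool) (A : BMat n) (r c : Fin k → Fin n) :
    Decidable (IsCopyK H A r c) := by
  unfold IsCopyK StrictMono
  infer_instance

/-- The set of ordered copies of the `k x k` pattern `H` in `A`, as pairs `(r, c)` of a
strictly increasing row selection and a strictly increasing column selection. -/
def copySetK {k n : ℕ} (H : Fin k → Fin k → Bool) (A : BMat n) :
    Finset ((Fin k → Fin n) × (Fin k → Fin n)) :=
  Finset.univ.filter fun p => IsCopyK H A p.1 p.2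

/-- `N_H(A)`: the number of ordered copies of the `k x k` pattern `H` in `A`. -/
def numCopiesK {k n : ℕ} (H : Fin k → Fin k → Bool) (A : BMat n) : ℕ :=
  (copySetK H A).card

/-- `B` is `H`-free: it has no ordered copy of the `k x k` pattern `H`. -/
def IsFreeK {k n : ℕ} (H : Fin k → Fin k → Bool) (B : BMat n) : Prop :=
  ∀ r c : Fin k → Fin n, ¬ IsCopyK H B r c

end Vale.Agent.Lib.P037.helper20
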