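import Mathlib
import Vale.Agent.Lib.P037.Defs
import Vale.Agent.Lib.P037.helper20.KDefs

namespace Vale.Agent.Lib.P037.helper20

open Finset Vale.Agent.Lib.P037

/-- Tuples with two prescribed equal entries: at most `n^t / n` of them. -/
theorem card_eq_pair_mul {t n : ℕ} (s s' : Fin t) (hs : s ≠ s') :
    (univ.filter fun I : Fin t → Fin n => I s = I s').card * n ≤ n ^ t := by
  have h := Finset.card_le_card_of_injOn
    (s := (univ.filter fun I : Fin t → Fin n => I s = I s') ×ˢ (univ : Finset (Fin n)))
    (t := (univ : Finset (Fin t → Fin n)))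
    (fun p => Function.update p.1 s p.2) (fun _ _ => Finset.mem_coe.2 (Finset.mem_univ _)) ?_
  · simpa [Finset.card_product] using h
  · intro p hp p' hp' heq
    have hp1 : p.1 s = p.1 s' := by
      have := Finset.mem_coe.1 hp
      rw [Finset.mem_product, Finset.mem_filter] at this
      exact this.1.2
    have hp1' : p'.1 s = p'.1 s' := by
      have := Finset.mem_coe.1 hp'
      rw [Finset.mem_product, Finset.mem_filter] at this
      exact this.1.2
    have heq' : Function.update p.1 s p.2 = Function.update p'.1 s p'.2 := heq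
    have hx : p.2 = p'.2 := by
      have := congrFun heq' s
      simpa using this
    have hrest : ∀ i, i ≠ s → p.1 i = p'.1 i := by
      intro i hi
      have := congrFun heq' i
      simpa [Function.update_of_ne hi] using this
    have hs1 : p.1 s = p'.1 s := by rw [hp1, hp1', hrest s' (Ne.symm hs)]
    refine Prod.ext ?_ hx
    funext i
    by_cases hi : i = s
    · subst hi
      exact hs1
    · exact hrest i hi

/-- Non-injective tuples: at most `t^2 n^t / n` of them. -/
theorem noninj_card (t n : ℕ) :
    (univ.filter fun I : Fin t → Fin n => ¬ Function.Injective I).card * n ≤ t ^ 2 * n ^ t := by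
  have hsub : (univ.filter fun I : Fin t → Fin n => ¬ Function.Injective I) ⊆
      (univ.filter fun p : Fin t × Fin t => p.1 ≠ p.2).biUnion
        (fun p => univ.filter fun I : Fin t → Fin n => I p.1 = I p.2) := by
    intro I hI
    rw [Finset.mem_filter] at hI
    have h2 := hI.2
    rw [Function.not_injective_iff] at h2
    obtain ⟨x, y, hxy, hne⟩ := h2
    rw [Finset.mem_biUnion]
    exact ⟨(x, y), by simp [hne], by simp [hxy]⟩
  calc (univ.filter fun I : Fin t → Fin n => ¬ Function.Injective I).card * n
      ≤ ((univ.filter fun p : Fin t × Fin t => p.1 ≠ p.2).biUnion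
        (fun p => univ.filter fun I : Fin t → Fin n => I p.1 = I p.2)).card * n :=
        Nat.mul_le_mul_right _ (Finset.card_le_card hsub)
    _ ≤ (∑ p ∈ univ.filter (fun p : Fin t × Fin t => p.1 ≠ p.2),
          (univ.filter fun I : Fin t → Fin n => I p.1 = I p.2).card) * n :=
        Nat.mul_le_mul_right _ Finset.card_biUnion_le
    _ = ∑ p ∈ univ.filter (fun p : Fin t × Fin t => p.1 ≠ p.2),
          (univ.filter fun I : Fin t → Fin n => I p.1 = I p.2).card * n := Finset.sum_mul _ _ _
    _ ≤ ∑ p ∈ univ.filter (fun p : Fin t × Fin t => p.1 ≠ p.2), n ^ t :=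
        Finset.sum_le_sum (fun p hp => card_eq_pair_mul p.1 p.2 (by simpa using hp))
    _ = (univ.filter (fun p : Fin t × Fin t => p.1 ≠ p.2)).card * n ^ t := by
        rw [Finset.sum_const, smul_eq_mul]
    _ ≤ t ^ 2 * n ^ t := by
        refine Nat.mul_le_mul_right _ ?_
        calc (univ.filter (fun p : Fin t × Fin t => p.1 ≠ p.2)).card
            ≤ (univ : Finset (Fin t × Fin t)).card := Finset.card_filter_le _ _
          _ = t ^ 2 := by simp [sq]

/-- Merging two injective tuples, the first entirely below the second, into one strictly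
increasing tuple. -/
theorem merge_sorted {n k a a' : ℕ} (hk : a + a' = k) (I : Fin a → Fin n) (J : Fin a' → Fin n)
    (hI : Function.Injective I) (hJ : Function.Injective J) (hIJ : ∀ s t, I s < J t) :
    ∃ r : Fin k → Fin n, StrictMono r ∧ (∀ i : Fin k, i.val < a → ∃ s, r i = I s) ∧
      (∀ i : Fin k, ¬ i.val < a → ∃ t, r i = J t) ∧ (∀ s, ∃ i, r i = I s) ∧
      (∀ t, ∃ i, r i = J t) := by
  have hcI : (univ.image I).card = a := by
    rw [Finset.card_image_of_injective _ hI]; simp
  have hcJ : (univ.image J).card = a' := by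
    rw [Finset.card_image_of_injective _ hJ]; simp
  have hmemI : ∀ j, ∃ s, (univ.image I).orderEmbOfFin hcI j = I s := by
    intro j
    have := Finset.orderEmbOfFin_mem (univ.image I) hcI j
    rw [Finset.mem_image] at this
    obtain ⟨s, _, hs⟩ := this
    exact ⟨s, hs.symm⟩
  have hmemJ : ∀ j, ∃ t, (univ.image J).orderEmbOfFin hcJ j = J t := by
    intro j
    have := Finset.orderEmbOfFin_mem (univ.image J) hcJ j
    rw [Finset.mem_image] at this
    obtain ⟨s, _, hs⟩ := this
    exact ⟨s, hs.symm⟩
  have hsurI : ∀ s, ∃ j, (univ.image I).orderEmbOfFin hcI j = I s := by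
    intro s
    have h1 : I s ∈ (↑(univ.image I) : Set (Fin n)) := by simp
    rw [← Finset.range_orderEmbOfFin (univ.image I) hcI] at h1
    exact h1
  have hsurJ : ∀ t, ∃ j, (univ.image J).orderEmbOfFin hcJ j = J t := by
    intro s
    have h1 : J s ∈ (↑(univ.image J) : Set (Fin n)) := by simp
    rw [← Finset.range_orderEmbOfFin (univ.image J) hcJ] at h1
    exact h1
  refine ⟨fun i => if h : i.val < a then (univ.image I).orderEmbOfFin hcI ⟨i.val, h⟩
    else (univ.image J).orderEmbOfFin hcJ ⟨i.val - a, by have := i.isLt; omega⟩, ?_, ?_, ?_, ?_, ?_⟩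
  · intro i i' hlt
    have hlt' : i.val < i'.val := hlt
    by_cases h1 : i.val < a
    · by_cases h2 : i'.val < a
      · simp only [dif_pos h1, dif_pos h2]
        exact (OrderEmbedding.strictMono _) (by exact Fin.mk_lt_mk.2 hlt')
      · simp only [dif_pos h1, dif_neg h2]
        obtain ⟨s, hs⟩ := hmemI ⟨i.val, h1⟩
        obtain ⟨t, ht⟩ := hmemJ ⟨i'.val - a, by have := i'.isLt; omega⟩
        rw [hs, ht]
        exact hIJ s t
    · have h2 : ¬ i'.val < a := by omega
      simp only [dif_neg h1, dif_neg h2]
      exact (OrderEmbedding.strictMono _) (by apply Fin.mk_lt_mk.2; omega)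
  · intro i hi
    simp only [dif_pos hi]
    exact hmemI _
  · intro i hi
    simp only [dif_neg hi]
    exact hmemJ _
  · intro s
    obtain ⟨j, hj⟩ := hsurI s
    refine ⟨⟨j.val, by have := j.isLt; omega⟩, ?_⟩
    simp only [dif_pos j.isLt]
    exact hj
  · intro t
    obtain ⟨j, hj⟩ := hsurJ t
    refine ⟨⟨a + j.val, by have := j.isLt; omega⟩, ?_⟩
    have hna : ¬ (a + j.val < a) := by omega
    simp only [dif_neg hna]
    rw [← hj]
    congr 1
    apply Fin.ext
    simp

end Vale.Agent.Lib.P037.helper20
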