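import Mathlib
import Vale.Agent.Lib.P037.Defs
import Vale.Agent.Lib.P037.helper20.KDefs
import Vale.Agent.Lib.P037.helper20.Cov1

namespace Vale.Agent.Lib.P037.helper20

open Finset Vale.Agent.Lib.P037

/-- The blown-up copies of the `2 x 2` pattern `H0`: quadruples of tuples all of whose
selections are ordered copies of `H0`. -/
def blowSet {n : ℕ} (H0 : Fin 2 → Fin 2 → Bool) (A : BMat n) (a a' b b' : ℕ) :
    Finset ((((Fin a → Fin n) × (Fin a' → Fin n)) × (Fin b → Fin n)) × (Fin b' → Fin n)) :=
  univ.filter fun z => ∀ q p t s, IsCopy H0 A (z.1.1.1 s) (z.1.1.2 t) (z.1.2 p) (z.2 q)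

/-- Blown-up copies with four injective tuples are covered by the ordered copies of the
block pattern. -/
theorem good_cover {n k a a' b b' : ℕ} (hk : a + a' = k) (hk' : b + b' = k)
    (ha : 0 < a) (ha' : 0 < a') (hb : 0 < b) (hb' : 0 < b')
    (H0 : Fin 2 → Fin 2 → Bool) (H : Fin k → Fin k → Bool)
    (hH : ∀ i j, H i j = H0 (if i.val < a then 0 else 1) (if j.val < b then 0 else 1))
    (A : BMat n) :
    ((blowSet H0 A a a' b b').filter fun z => Function.Injective z.1.1.1 ∧
        Function.Injective z.1.1.2 ∧ Function.Injective z.1.2 ∧ Function.Injective z.2).card ≤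
      numCopiesK H A * k ^ (a + a' + b + b') := by
  unfold numCopiesK
  refine le_trans (Finset.card_le_card ?_) (Finset.card_biUnion_le_card_mul (copySetK H A)
    (fun rc => ((Fintype.piFinset (fun _ : Fin a => univ.image rc.1) ×ˢ
      Fintype.piFinset (fun _ : Fin a' => univ.image rc.1)) ×ˢ
      Fintype.piFinset (fun _ : Fin b => univ.image rc.2)) ×ˢ
      Fintype.piFinset (fun _ : Fin b' => univ.image rc.2)) _ ?_)
  · intro z hz
    rw [Finset.mem_filter] at hz
    obtain ⟨hzB, hI, hJ, hU, hV⟩ := hz
    have hc : ∀ q p t s, IsCopy H0 A (z.1.1.1 s) (z.1.1.2 t) (z.1.2 p) (z.2 q) := by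
      unfold blowSet at hzB
      rw [Finset.mem_filter] at hzB
      exact hzB.2
    obtain ⟨r, hr, hr1, hr2, hr3, hr4⟩ := merge_sorted hk z.1.1.1 z.1.1.2 hI hJ
      (fun s t => (hc ⟨0, hb'⟩ ⟨0, hb⟩ t s).1)
    obtain ⟨c, hc0, hc1, hc2, hc3, hc4⟩ := merge_sorted hk' z.1.2 z.2 hU hV
      (fun p q => (hc q p ⟨0, ha'⟩ ⟨0, ha⟩).2.1)
    rw [Finset.mem_biUnion]
    refine ⟨(r, c), ?_, ?_⟩
    · unfold copySetK
      rw [Finset.mem_filter]
      refine ⟨Finset.mem_univ _, hr, hc0, ?_⟩
      intro i j
      show A (r i) (c j) = H i j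
      rw [hH]
      by_cases hi : i.val < a
      · obtain ⟨s, hs⟩ := hr1 i hi
        by_cases hj : j.val < b
        · obtain ⟨p, hp⟩ := hc1 j hj
          rw [if_pos hi, if_pos hj, hs, hp]
          exact (hc ⟨0, hb'⟩ p ⟨0, ha'⟩ s).2.2.1
        · obtain ⟨q, hq⟩ := hc2 j hj
          rw [if_pos hi, if_neg hj, hs, hq]
          exact (hc q ⟨0, hb⟩ ⟨0, ha'⟩ s).2.2.2.1
      · obtain ⟨t, ht⟩ := hr2 i hi
        by_cases hj : j.val < b
        · obtain ⟨p, hp⟩ := hc1 j hj
          rw [if_neg hi, if_pos hj, ht, hp]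
          exact (hc ⟨0, hb'⟩ p t ⟨0, ha⟩).2.2.2.2.1
        · obtain ⟨q, hq⟩ := hc2 j hj
          rw [if_neg hi, if_neg hj, ht, hq]
          exact (hc q ⟨0, hb⟩ t ⟨0, ha⟩).2.2.2.2.2
    · simp only [Finset.mem_product, Fintype.mem_piFinset, Finset.mem_image, Finset.mem_univ,
        true_and]
      exact ⟨⟨⟨hr3, hr4⟩, hc3⟩, hc4⟩
  · intro rc _
    have h1 : (univ.image rc.1).card ≤ k :=
      calc (univ.image rc.1).card ≤ (univ : Finset (Fin k)).card := Finset.card_image_le
        _ = k := by simp
    have h2 : (univ.image rc.2).card ≤ k :=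
      calc (univ.image rc.2).card ≤ (univ : Finset (Fin k)).card := Finset.card_image_le
        _ = k := by simp
    rw [Finset.card_product, Finset.card_product, Finset.card_product,
      Fintype.card_piFinset_const, Fintype.card_piFinset_const, Fintype.card_piFinset_const,
      Fintype.card_piFinset_const]
    calc (univ.image rc.1).card ^ a * (univ.image rc.1).card ^ a' * (univ.image rc.2).card ^ b *
          (univ.image rc.2).card ^ b' ≤ k ^ a * k ^ a' * k ^ b * k ^ b' := by gcongr
      _ = k ^ (a + a' + b + b') := by ring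

/-- A set covered by five sets. -/
theorem card_le_five {α : Type*} [DecidableEq α] (S G B1 B2 B3 B4 : Finset α)
    (h : ∀ z ∈ S, z ∈ G ∨ z ∈ B1 ∨ z ∈ B2 ∨ z ∈ B3 ∨ z ∈ B4) :
    S.card ≤ G.card + B1.card + B2.card + B3.card + B4.card := by
  have hsub : S ⊆ G ∪ (B1 ∪ (B2 ∪ (B3 ∪ B4))) := by
    intro z hz
    simp only [Finset.mem_union]
    exact h z hz
  have h1 := Finset.card_le_card hsub
  have h2 := Finset.card_union_le G (B1 ∪ (B2 ∪ (B3 ∪ B4)))
  have h3 := Finset.card_union_le B1 (B2 ∪ (B3 ∪ B4))
  have h4 := Finset.card_union_le B2 (B3 ∪ B4)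
  have h5 := Finset.card_union_le B3 B4
  omega

/-- Counting a filter on the first coordinate of a product. -/
theorem card_filter_fst {S T : Type*} [Fintype S] [Fintype T] (p : S → Prop) [DecidablePred p] :
    (univ.filter fun z : S × T => p z.1).card = (univ.filter p).card * Fintype.card T := by
  rw [← Finset.univ_product_univ, Finset.filter_product_left, Finset.card_product,
    Finset.card_univ]

/-- Counting a filter on the second coordinate of a product. -/
theorem card_filter_snd {S T : Type*} [Fintype S] [Fintype T] (p : T → Prop) [DecidablePred p] :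
    (univ.filter fun z : S × T => p z.2).card = Fintype.card S * (univ.filter p).card := by
  rw [← Finset.univ_product_univ, Finset.filter_product_right, Finset.card_product,
    Finset.card_univ]

/-- The number of blown-up copies is at most the number of ordered copies of the block
pattern times `k^(2k)`, up to the quadruples with a non-injective tuple. -/
theorem blow_card_le {n k a a' b b' : ℕ} (hk : a + a' = k) (hk' : b + b' = k)
    (ha : 0 < a) (ha' : 0 < a') (hb : 0 < b) (hb' : 0 < b')
    (H0 : Fin 2 → Fin 2 → Bool) (H : Fin k → Fin k → Bool)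
    (hH : ∀ i j, H i j = H0 (if i.val < a then 0 else 1) (if j.val < b then 0 else 1))
    (A : BMat n) :
    (blowSet H0 A a a' b b').card * n ≤ numCopiesK H A * k ^ (a + a' + b + b') * n +
      (a ^ 2 + a' ^ 2 + b ^ 2 + b' ^ 2) * n ^ (a + a' + b + b') := by
  have hgood := good_cover hk hk' ha ha' hb hb' H0 H hH A
  have hcases : ∀ z ∈ blowSet H0 A a a' b b',
      z ∈ ((blowSet H0 A a a' b b').filter fun z => Function.Injective z.1.1.1 ∧
        Function.Injective z.1.1.2 ∧ Function.Injective z.1.2 ∧ Function.Injective z.2) ∨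
      z ∈ (univ.filter fun z : (((Fin a → Fin n) × (Fin a' → Fin n)) × (Fin b → Fin n)) ×
          (Fin b' → Fin n) => ¬ Function.Injective z.1.1.1) ∨
      z ∈ (univ.filter fun z : (((Fin a → Fin n) × (Fin a' → Fin n)) × (Fin b → Fin n)) ×
          (Fin b' → Fin n) => ¬ Function.Injective z.1.1.2) ∨
      z ∈ (univ.filter fun z : (((Fin a → Fin n) × (Fin a' → Fin n)) × (Fin b → Fin n)) ×
          (Fin b' → Fin n) => ¬ Function.Injective z.1.2) ∨
      z ∈ (univ.filter fun z : (((Fin a → Fin n) × (Fin a' → Fin n)) × (Fin b → Fin n)) ×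
          (Fin b' → Fin n) => ¬ Function.Injective z.2) := by
    intro z hz
    simp only [Finset.mem_filter, Finset.mem_univ, true_and]
    by_cases h1 : Function.Injective z.1.1.1
    · by_cases h2 : Function.Injective z.1.1.2
      · by_cases h3 : Function.Injective z.1.2
        · by_cases h4 : Function.Injective z.2
          · exact Or.inl ⟨hz, h1, h2, h3, h4⟩
          · exact Or.inr (Or.inr (Or.inr (Or.inr h4)))
        · exact Or.inr (Or.inr (Or.inr (Or.inl h3)))
      · exact Or.inr (Or.inr (Or.inl h2))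
    · exact Or.inr (Or.inl h1)
  have hcard := card_le_five _ _ _ _ _ _ hcases
  have b1 : (univ.filter fun z : (((Fin a → Fin n) × (Fin a' → Fin n)) × (Fin b → Fin n)) ×
      (Fin b' → Fin n) => ¬ Function.Injective z.1.1.1).card * n ≤
      a ^ 2 * n ^ (a + a' + b + b') := by
    rw [card_filter_fst (fun w : ((Fin a → Fin n) × (Fin a' → Fin n)) × (Fin b → Fin n) =>
        ¬ Function.Injective w.1.1),
      card_filter_fst (fun w : (Fin a → Fin n) × (Fin a' → Fin n) => ¬ Function.Injective w.1),
      card_filter_fst (fun w : Fin a → Fin n => ¬ Function.Injective w)]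
    have := noninj_card a n
    simp only [Fintype.card_pi, Finset.prod_const, Finset.card_univ, Fintype.card_fin]
    calc (univ.filter fun w : Fin a → Fin n => ¬ Function.Injective w).card * n ^ a' * n ^ b *
          n ^ b' * n = ((univ.filter fun w : Fin a → Fin n => ¬ Function.Injective w).card * n) *
          (n ^ a' * n ^ b * n ^ b') := by ring
      _ ≤ (a ^ 2 * n ^ a) * (n ^ a' * n ^ b * n ^ b') := Nat.mul_le_mul_right _ this
      _ = a ^ 2 * n ^ (a + a' + b + b') := by ring
  have b2 : (univ.filter fun z : (((Fin a → Fin n) × (Fin a' → Fin n)) × (Fin b → Fin n)) ×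
      (Fin b' → Fin n) => ¬ Function.Injective z.1.1.2).card * n ≤
      a' ^ 2 * n ^ (a + a' + b + b') := by
    rw [card_filter_fst (fun w : ((Fin a → Fin n) × (Fin a' → Fin n)) × (Fin b → Fin n) =>
        ¬ Function.Injective w.1.2),
      card_filter_fst (fun w : (Fin a → Fin n) × (Fin a' → Fin n) => ¬ Function.Injective w.2),
      card_filter_snd (fun w : Fin a' → Fin n => ¬ Function.Injective w)]
    have := noninj_card a' n
    simp only [Fintype.card_pi, Finset.prod_const, Finset.card_univ, Fintype.card_fin]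
    calc n ^ a * (univ.filter fun w : Fin a' → Fin n => ¬ Function.Injective w).card * n ^ b *
          n ^ b' * n = ((univ.filter fun w : Fin a' → Fin n => ¬ Function.Injective w).card * n) *
          (n ^ a * n ^ b * n ^ b') := by ring
      _ ≤ (a' ^ 2 * n ^ a') * (n ^ a * n ^ b * n ^ b') := Nat.mul_le_mul_right _ this
      _ = a' ^ 2 * n ^ (a + a' + b + b') := by ring
  have b3 : (univ.filter fun z : (((Fin a → Fin n) × (Fin a' → Fin n)) × (Fin b → Fin n)) ×
      (Fin b' → Fin n) => ¬ Function.Injective z.1.2).card * n ≤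
      b ^ 2 * n ^ (a + a' + b + b') := by
    rw [card_filter_fst (fun w : ((Fin a → Fin n) × (Fin a' → Fin n)) × (Fin b → Fin n) =>
        ¬ Function.Injective w.2),
      card_filter_snd (fun w : Fin b → Fin n => ¬ Function.Injective w)]
    have := noninj_card b n
    simp only [Fintype.card_pi, Finset.prod_const, Finset.card_univ, Fintype.card_fin,
      Fintype.card_prod]
    calc n ^ a * n ^ a' * (univ.filter fun w : Fin b → Fin n => ¬ Function.Injective w).card *
          n ^ b' * n = ((univ.filter fun w : Fin b → Fin n => ¬ Function.Injective w).card * n) *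
          (n ^ a * n ^ a' * n ^ b') := by ring
      _ ≤ (b ^ 2 * n ^ b) * (n ^ a * n ^ a' * n ^ b') := Nat.mul_le_mul_right _ this
      _ = b ^ 2 * n ^ (a + a' + b + b') := by ring
  have b4 : (univ.filter fun z : (((Fin a → Fin n) × (Fin a' → Fin n)) × (Fin b → Fin n)) ×
      (Fin b' → Fin n) => ¬ Function.Injective z.2).card * n ≤
      b' ^ 2 * n ^ (a + a' + b + b') := by
    rw [card_filter_snd (fun w : Fin b' → Fin n => ¬ Function.Injective w)]
    have := noninj_card b' n
    simp only [Fintype.card_pi, Finset.prod_const, Finset.card_univ, Fintype.card_fin,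
      Fintype.card_prod]
    calc n ^ a * n ^ a' * n ^ b * (univ.filter fun w : Fin b' → Fin n => ¬ Function.Injective w).card
          * n = ((univ.filter fun w : Fin b' → Fin n => ¬ Function.Injective w).card * n) *
          (n ^ a * n ^ a' * n ^ b) := by ring
      _ ≤ (b' ^ 2 * n ^ b') * (n ^ a * n ^ a' * n ^ b) := Nat.mul_le_mul_right _ this
      _ = b' ^ 2 * n ^ (a + a' + b + b') := by ring
  have hmul : (blowSet H0 A a a' b b').card * n ≤
      (numCopiesK H A * k ^ (a + a' + b + b') +
        (univ.filter fun z : (((Fin a → Fin n) × (Fin a' → Fin n)) × (Fin b → Fin n)) ×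
          (Fin b' → Fin n) => ¬ Function.Injective z.1.1.1).card +
        (univ.filter fun z : (((Fin a → Fin n) × (Fin a' → Fin n)) × (Fin b → Fin n)) ×
          (Fin b' → Fin n) => ¬ Function.Injective z.1.1.2).card +
        (univ.filter fun z : (((Fin a → Fin n) × (Fin a' → Fin n)) × (Fin b → Fin n)) ×
          (Fin b' → Fin n) => ¬ Function.Injective z.1.2).card +
        (univ.filter fun z : (((Fin a → Fin n) × (Fin a' → Fin n)) × (Fin b → Fin n)) ×
          (Fin b' → Fin n) => ¬ Function.Injective z.2).card) * n :=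
    Nat.mul_le_mul_right _ (le_trans hcard (by omega))
  calc (blowSet H0 A a a' b b').card * n ≤ _ := hmul
    _ = numCopiesK H A * k ^ (a + a' + b + b') * n +
        (univ.filter fun z : (((Fin a → Fin n) × (Fin a' → Fin n)) × (Fin b → Fin n)) ×
          (Fin b' → Fin n) => ¬ Function.Injective z.1.1.1).card * n +
        (univ.filter fun z : (((Fin a → Fin n) × (Fin a' → Fin n)) × (Fin b → Fin n)) ×
          (Fin b' → Fin n) => ¬ Function.Injective z.1.1.2).card * n +
        (univ.filter fun z : (((Fin a → Fin n) × (Fin a' → Fin n)) × (Fin b → Fin n)) ×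
          (Fin b' → Fin n) => ¬ Function.Injective z.1.2).card * n +
        (univ.filter fun z : (((Fin a → Fin n) × (Fin a' → Fin n)) × (Fin b → Fin n)) ×
          (Fin b' → Fin n) => ¬ Function.Injective z.2).card * n := by ring
    _ ≤ numCopiesK H A * k ^ (a + a' + b + b') * n + a ^ 2 * n ^ (a + a' + b + b') +
        a' ^ 2 * n ^ (a + a' + b + b') + b ^ 2 * n ^ (a + a' + b + b') +
        b' ^ 2 * n ^ (a + a' + b + b') := by
        have := b1
        have := b2
        have := b3
        have := b4
        omega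
    _ = _ := by ring

end Vale.Agent.Lib.P037.helper20
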