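import Mathlib
import Vale.Agent.Lib.P037.Defs
import Vale.Agent.Lib.P037.helper20.Sym
import Vale.Agent.Lib.P037.helper20.KDefs
import Vale.Agent.Lib.P037.helper20.Box
import Vale.Agent.Lib.P037.helper20.Cov1
import Vale.Agent.Lib.P037.helper20.Cov2

/-!
Removal bounds for block patterns: a `k x k` pattern `H` whose first `a` rows coincide, whose
last `k - a` rows coincide, whose first `b` columns coincide and whose last `k - b` columns
coincide is a blow-up of a `2 x 2` pattern `H0`, and a removal bound for `H0` gives one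
for `H`.
-/

namespace Vale.Agent.Lib.P037.helper20

open Finset Vale.Agent.Lib.P037

/-- A matrix free of the `2 x 2` pattern `H0` is free of every block blow-up of `H0`. -/
theorem free_transfer {n k a b : ℕ} (ha : 0 < a) (hak : a < k) (hb : 0 < b) (hbk : b < k)
    (H0 : Fin 2 → Fin 2 → Bool) (H : Fin k → Fin k → Bool)
    (hH : ∀ i j, H i j = H0 (if i.val < a then 0 else 1) (if j.val < b then 0 else 1))
    (B : BMat n) (hB : IsFree H0 B) : IsFreeK H B := by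
  intro r c hcopy
  obtain ⟨hr, hc, hent⟩ := hcopy
  have hk : 0 < k := by omega
  have hna : ¬ (k - 1 < a) := by omega
  have hnb : ¬ (k - 1 < b) := by omega
  apply hB (r ⟨0, hk⟩) (r ⟨k - 1, by omega⟩) (c ⟨0, hk⟩) (c ⟨k - 1, by omega⟩)
  refine ⟨hr (by apply Fin.mk_lt_mk.2; omega), hc (by apply Fin.mk_lt_mk.2; omega), ?_, ?_, ?_, ?_⟩
  · rw [hent, hH]; simp [ha, hb]
  · rw [hent, hH]; simp [ha, hnb]
  · rw [hent, hH]; simp [hna, hb]
  · rw [hent, hH]; simp [hna, hnb]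

theorem sq_add_sq_le (a a' : ℕ) : a ^ 2 + a' ^ 2 ≤ (a + a') ^ 2 := by
  nlinarith [Nat.zero_le (a * a')]

/-- A removal bound for a `2 x 2` pattern `H0` gives a removal bound for every block blow-up
`H` of `H0`. -/
theorem removal_block {K : ℕ} {C : ℝ} (hC : 1 ≤ C) (k a b : ℕ) (ha : 0 < a) (hak : a < k)
    (hb : 0 < b) (hbk : b < k) (H0 : Fin 2 → Fin 2 → Bool) (hrem : Removal H0 K C)
    (H : Fin k → Fin k → Bool)
    (hH : ∀ i j, H i j = H0 (if i.val < a then 0 else 1) (if j.val < b then 0 else 1))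
    (n : ℕ) (A : BMat n) (ε : ℝ) (hε : 0 < ε) (hε1 : ε < 1)
    (hfar : ∀ B : BMat n, IsFreeK H B →
      ε * (n : ℝ) ^ 2 ≤ (Vale.Agent.Lib.P037.hammingDist A B : ℝ)) :
    (ε ^ K / C) ^ (2 * k * (a * (k - a) * b * (k - b))) * (n : ℝ) ^ (2 * k) ≤
      (4 * (k : ℝ) ^ 2) ^ (2 * k) * (numCopiesK H A : ℝ) := by
  have hk0 : 0 < k := by omega
  have hCpos : 0 < C := by linarith
  have hNnn : (0 : ℝ) ≤ (numCopiesK H A : ℝ) := Nat.cast_nonneg _
  rcases Nat.eq_zero_or_pos n with hn | hn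
  · subst hn
    have h0 : ((0 : ℕ) : ℝ) ^ (2 * k) = 0 := by
      rw [Nat.cast_zero]
      exact zero_pow (by omega)
    rw [h0, mul_zero]
    positivity
  have hx : (0 : ℝ) < (n : ℝ) := by exact_mod_cast hn
  have hδpos : 0 < ε ^ K / C := by positivity
  have hδ1 : ε ^ K / C ≤ 1 := by
    rw [div_le_one hCpos]
    exact le_trans (pow_le_one₀ hε.le hε1.le) hC
  have h1 := hrem n A ε hε hε1 (fun B hB => hfar B (free_transfer ha hak hb hbk H0 H hH B hB))
  have h2 := box4 hn (fun x y u v => IsCopy H0 A x y u v) a (k - a) b (k - b) ha (by omega) hb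
    (by omega)
  have h3 := blow_card_le (a' := k - a) (b' := k - b) (by omega : a + (k - a) = k)
    (by omega : b + (k - b) = k) ha (by omega) hb (by omega) H0 H hH A
  have he : a + (k - a) + b + (k - b) = 2 * k := by omega
  rw [he] at h2 h3
  have hQ : ε ^ K / C ≤ (numCopies H0 A : ℝ) / (n : ℝ) ^ 4 := by
    rw [div_le_div_iff₀ hCpos (by positivity)]
    linarith
  have h4 : (ε ^ K / C) ^ (a * (k - a) * b * (k - b)) ≤
      ((blowSet H0 A a (k - a) b (k - b)).card : ℝ) / (n : ℝ) ^ (2 * k) :=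
    le_trans (pow_le_pow_left₀ hδpos.le hQ _) h2
  have h5 : (ε ^ K / C) ^ (a * (k - a) * b * (k - b)) * (n : ℝ) ^ (2 * k) ≤
      ((blowSet H0 A a (k - a) b (k - b)).card : ℝ) := by
    rwa [le_div_iff₀ (by positivity)] at h4
  have h6 : ((blowSet H0 A a (k - a) b (k - b)).card : ℝ) * (n : ℝ) ≤
      (numCopiesK H A : ℝ) * (k : ℝ) ^ (2 * k) * (n : ℝ) +
        ((a ^ 2 + (k - a) ^ 2 + b ^ 2 + (k - b) ^ 2 : ℕ) : ℝ) * (n : ℝ) ^ (2 * k) := by
    exact_mod_cast h3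
  have hS : ((a ^ 2 + (k - a) ^ 2 + b ^ 2 + (k - b) ^ 2 : ℕ) : ℝ) ≤ 2 * (k : ℝ) ^ 2 := by
    have e1 := sq_add_sq_le a (k - a)
    have e2 := sq_add_sq_le b (k - b)
    rw [show a + (k - a) = k by omega] at e1
    rw [show b + (k - b) = k by omega] at e2
    have e3 : a ^ 2 + (k - a) ^ 2 + b ^ 2 + (k - b) ^ 2 ≤ 2 * k ^ 2 := by omega
    exact_mod_cast e3
  have hN1 : (1 : ℝ) ≤ (numCopiesK H A : ℝ) := by
    have hne : ¬ IsFreeK H A := by
      intro hfree
      have h := hfar A hfree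
      have hd : Vale.Agent.Lib.P037.hammingDist A A = 0 := by
        simp [Vale.Agent.Lib.P037.hammingDist]
      rw [hd] at h
      have hpos : 0 < ε * (n : ℝ) ^ 2 := by positivity
      simp only [Nat.cast_zero] at h
      linarith
    unfold IsFreeK at hne
    push Not at hne
    obtain ⟨r, c, hrc⟩ := hne
    have hpos : 0 < numCopiesK H A :=
      Finset.card_pos.2 ⟨(r, c), by unfold copySetK; simp [hrc]⟩
    exact_mod_cast hpos
  by_cases hcase : 4 * (k : ℝ) ^ 2 ≤ (ε ^ K / C) ^ (a * (k - a) * b * (k - b)) * (n : ℝ)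
  · have h7 : (ε ^ K / C) ^ (a * (k - a) * b * (k - b)) * (n : ℝ) ^ (2 * k) * (n : ℝ) ≤
        (numCopiesK H A : ℝ) * (k : ℝ) ^ (2 * k) * (n : ℝ) +
          2 * (k : ℝ) ^ 2 * (n : ℝ) ^ (2 * k) :=
      calc (ε ^ K / C) ^ (a * (k - a) * b * (k - b)) * (n : ℝ) ^ (2 * k) * (n : ℝ)
          ≤ ((blowSet H0 A a (k - a) b (k - b)).card : ℝ) * (n : ℝ) :=
            mul_le_mul_of_nonneg_right h5 hx.le
        _ ≤ _ := h6
        _ ≤ _ := by gcongr
    have h8 := mul_le_mul_of_nonneg_right hcase (pow_pos hx (2 * k)).le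
    have h9 : (ε ^ K / C) ^ (a * (k - a) * b * (k - b)) * (n : ℝ) ^ (2 * k) * (n : ℝ) ≤
        2 * (numCopiesK H A : ℝ) * (k : ℝ) ^ (2 * k) * (n : ℝ) := by nlinarith
    have h10 : (ε ^ K / C) ^ (a * (k - a) * b * (k - b)) * (n : ℝ) ^ (2 * k) ≤
        2 * (numCopiesK H A : ℝ) * (k : ℝ) ^ (2 * k) := le_of_mul_le_mul_right h9 hx
    have hexp : a * (k - a) * b * (k - b) ≤ 2 * k * (a * (k - a) * b * (k - b)) :=
      Nat.le_mul_of_pos_left _ (by omega)
    have hk1 : (1 : ℝ) ≤ (k : ℝ) := by exact_mod_cast hk0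
    have hconst : 2 * (k : ℝ) ^ (2 * k) ≤ (4 * (k : ℝ) ^ 2) ^ (2 * k) := by
      have t1 : (2 : ℝ) ≤ 2 ^ (2 * k) := by
        calc (2 : ℝ) = 2 ^ 1 := by norm_num
          _ ≤ 2 ^ (2 * k) := pow_le_pow_right₀ (by norm_num) (by omega)
      have t2 : (2 * (k : ℝ)) ^ (2 * k) ≤ (4 * (k : ℝ) ^ 2) ^ (2 * k) :=
        pow_le_pow_left₀ (by positivity) (by nlinarith) _
      calc 2 * (k : ℝ) ^ (2 * k) ≤ 2 ^ (2 * k) * (k : ℝ) ^ (2 * k) := by gcongr
        _ = (2 * (k : ℝ)) ^ (2 * k) := by rw [mul_pow]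
        _ ≤ _ := t2
    calc (ε ^ K / C) ^ (2 * k * (a * (k - a) * b * (k - b))) * (n : ℝ) ^ (2 * k)
        ≤ (ε ^ K / C) ^ (a * (k - a) * b * (k - b)) * (n : ℝ) ^ (2 * k) :=
          mul_le_mul_of_nonneg_right (pow_le_pow_of_le_one hδpos.le hδ1 hexp) (by positivity)
      _ ≤ 2 * (numCopiesK H A : ℝ) * (k : ℝ) ^ (2 * k) := h10
      _ = (2 * (k : ℝ) ^ (2 * k)) * (numCopiesK H A : ℝ) := by ring
      _ ≤ _ := by gcongr
  · push Not at hcase
    have h11 : ((ε ^ K / C) ^ (a * (k - a) * b * (k - b)) * (n : ℝ)) ^ (2 * k) ≤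
        (4 * (k : ℝ) ^ 2) ^ (2 * k) := pow_le_pow_left₀ (by positivity) hcase.le _
    calc (ε ^ K / C) ^ (2 * k * (a * (k - a) * b * (k - b))) * (n : ℝ) ^ (2 * k)
        = ((ε ^ K / C) ^ (a * (k - a) * b * (k - b)) * (n : ℝ)) ^ (2 * k) := by
          rw [mul_pow, ← pow_mul]
          congr 2
          ring
      _ ≤ (4 * (k : ℝ) ^ 2) ^ (2 * k) := h11
      _ ≤ _ := le_mul_of_one_le_right (by positivity) hN1

theorem four_mul_le_sq (a a' : ℕ) : 4 * (a * a') ≤ (a + a') ^ 2 := by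
  rcases Nat.le_total a a' with h | h
  · obtain ⟨d, rfl⟩ := Nat.exists_eq_add_of_le h
    nlinarith [Nat.zero_le (d * d)]
  · obtain ⟨d, rfl⟩ := Nat.exists_eq_add_of_le h
    nlinarith [Nat.zero_le (d * d)]

/-- The removal bound for block patterns with constants depending only on `k`, from the
removal bound with exponent `18` and constant `3 * 10^12` for the `2 x 2` pattern `H0`. -/
theorem removal_block_uniform (k a b : ℕ) (ha : 0 < a) (hak : a < k)
    (hb : 0 < b) (hbk : b < k) (H0 : Fin 2 → Fin 2 → Bool)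
    (hrem : Removal H0 18 (3 * 10 ^ 12))
    (H : Fin k → Fin k → Bool)
    (hH : ∀ i j, H i j = H0 (if i.val < a then 0 else 1) (if j.val < b then 0 else 1))
    (n : ℕ) (A : BMat n) (ε : ℝ) (hε : 0 < ε) (hε1 : ε < 1)
    (hfar : ∀ B : BMat n, IsFreeK H B →
      ε * (n : ℝ) ^ 2 ≤ (Vale.Agent.Lib.P037.hammingDist A B : ℝ)) :
    ε ^ (3 * k ^ 5) * (n : ℝ) ^ (2 * k) ≤
      (3 * 10 ^ 12) ^ (k ^ 5) * (4 * (k : ℝ) ^ 2) ^ (2 * k) * (numCopiesK H A : ℝ) := by
  have hC1 : (1 : ℝ) ≤ 3 * 10 ^ 12 := by norm_num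
  have h := removal_block hC1 k a b ha hak hb hbk H0 hrem H hH n A ε hε hε1 hfar
  have f1 : 4 * (a * (k - a)) ≤ k ^ 2 := by
    have := four_mul_le_sq a (k - a)
    rwa [show a + (k - a) = k by omega] at this
  have f2 : 4 * (b * (k - b)) ≤ k ^ 2 := by
    have := four_mul_le_sq b (k - b)
    rwa [show b + (k - b) = k by omega] at this
  have f3 : 16 * (a * (k - a) * b * (k - b)) ≤ k ^ 4 :=
    calc 16 * (a * (k - a) * b * (k - b)) = (4 * (a * (k - a))) * (4 * (b * (k - b))) := by ring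
      _ ≤ k ^ 2 * k ^ 2 := Nat.mul_le_mul f1 f2
      _ = k ^ 4 := by ring
  have f4 : k * (16 * (a * (k - a) * b * (k - b))) ≤ k * k ^ 4 := Nat.mul_le_mul_left k f3
  have hM1 : 18 * (2 * k * (a * (k - a) * b * (k - b))) ≤ 3 * k ^ 5 := by
    have e : k * k ^ 4 = k ^ 5 := by ring
    rw [e] at f4
    have e2 : 18 * (2 * k * (a * (k - a) * b * (k - b))) * 4 =
        9 * (k * (16 * (a * (k - a) * b * (k - b)))) := by ring
    omega
  have hM2 : 2 * k * (a * (k - a) * b * (k - b)) ≤ k ^ 5 := by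
    have e : k * k ^ 4 = k ^ 5 := by ring
    rw [e] at f4
    have e2 : 2 * k * (a * (k - a) * b * (k - b)) * 8 =
        k * (16 * (a * (k - a) * b * (k - b))) := by ring
    omega
  have key : (ε ^ 18 / (3 * 10 ^ 12 : ℝ)) ^ (2 * k * (a * (k - a) * b * (k - b))) =
      ε ^ (18 * (2 * k * (a * (k - a) * b * (k - b)))) /
        (3 * 10 ^ 12 : ℝ) ^ (2 * k * (a * (k - a) * b * (k - b))) := by
    rw [div_pow, ← pow_mul]
  have hNnn : (0 : ℝ) ≤ (numCopiesK H A : ℝ) := Nat.cast_nonneg _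
  calc ε ^ (3 * k ^ 5) * (n : ℝ) ^ (2 * k)
      ≤ ε ^ (18 * (2 * k * (a * (k - a) * b * (k - b)))) * (n : ℝ) ^ (2 * k) :=
        mul_le_mul_of_nonneg_right (pow_le_pow_of_le_one hε.le hε1.le hM1) (by positivity)
    _ = (3 * 10 ^ 12 : ℝ) ^ (2 * k * (a * (k - a) * b * (k - b))) *
          ((ε ^ 18 / (3 * 10 ^ 12 : ℝ)) ^ (2 * k * (a * (k - a) * b * (k - b))) *
            (n : ℝ) ^ (2 * k)) := by
        rw [key]
        field_simp
    _ ≤ (3 * 10 ^ 12 : ℝ) ^ (2 * k * (a * (k - a) * b * (k - b))) *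
          ((4 * (k : ℝ) ^ 2) ^ (2 * k) * (numCopiesK H A : ℝ)) :=
        mul_le_mul_of_nonneg_left h (by positivity)
    _ ≤ (3 * 10 ^ 12 : ℝ) ^ (k ^ 5) * ((4 * (k : ℝ) ^ 2) ^ (2 * k) * (numCopiesK H A : ℝ)) :=
        mul_le_mul_of_nonneg_right (pow_le_pow_right₀ hC1 hM2) (by positivity)
    _ = _ := by ring

end Vale.Agent.Lib.P037.helper20
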