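import Mathlib

namespace Vale.Agent.Lib.P037.helper20

open Finset

/-- Averaging over one coordinate of a uniformly random function `Fin r → α`. -/
theorem sum_coord {α : Type*} [Fintype α] [DecidableEq α] (r : ℕ) (k : Fin r) (φ : α → ℕ) :
    (∑ g : Fin r → α, φ (g k)) * Fintype.card α = Fintype.card α ^ r * ∑ a, φ a := by
  classical
  -- the involution (g, b) ↦ (update g k b, g k)
  let e : (Fin r → α) × α → (Fin r → α) × α := fun p => (Function.update p.1 k p.2, p.1 k)
  have he : Function.Involutive e := by
    intro p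
    obtain ⟨g, b⟩ := p
    simp only [e]
    ext i
    · by_cases hi : i = k
      · subst hi; simp
      · simp [Function.update_of_ne hi]
    · simp
  have h1 : (∑ g : Fin r → α, φ (g k)) * Fintype.card α
      = ∑ p : (Fin r → α) × α, φ (p.1 k) := by
    rw [Fintype.sum_prod_type, Finset.sum_mul]
    apply Finset.sum_congr rfl
    intro g _
    show φ (g k) * Fintype.card α = ∑ _y : α, φ (g k)
    rw [Finset.sum_const, Finset.card_univ, smul_eq_mul, mul_comm]
  have h2 : Fintype.card α ^ r * ∑ a, φ a = ∑ p : (Fin r → α) × α, φ p.2 := by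
    rw [Fintype.sum_prod_type]
    show Fintype.card α ^ r * ∑ a, φ a = ∑ _x : Fin r → α, ∑ y, φ y
    rw [Finset.sum_const, Finset.card_univ, Fintype.card_pi_const, smul_eq_mul]
  rw [h1, h2]
  exact Fintype.sum_equiv he.toPerm _ _ (fun p => rfl)

/-- Averaging over two distinct coordinates of a uniformly random function `Fin r → α`. -/
theorem sum_two_coord {α : Type*} [Fintype α] [DecidableEq α] (r : ℕ) (k l : Fin r)
    (hkl : k ≠ l) (ψ : α → α → ℕ) :
    (∑ g : Fin r → α, ψ (g k) (g l)) * Fintype.card α ^ 2
      = Fintype.card α ^ r * ∑ a, ∑ b, ψ a b := by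
  classical
  let e : (Fin r → α) × α × α → (Fin r → α) × α × α :=
    fun p => (Function.update (Function.update p.1 k p.2.1) l p.2.2, p.1 k, p.1 l)
  have he : Function.Involutive e := by
    intro p
    obtain ⟨g, a, b⟩ := p
    simp only [e]
    have hlk : l ≠ k := fun h => hkl h.symm
    ext i
    · by_cases hil : i = l
      · subst hil; simp
      · by_cases hik : i = k
        · subst hik; simp [Function.update_of_ne hil]
        · simp [Function.update_of_ne hil, Function.update_of_ne hik]
    · simp [Function.update_of_ne hkl]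
    · simp
  have h1 : (∑ g : Fin r → α, ψ (g k) (g l)) * Fintype.card α ^ 2
      = ∑ p : (Fin r → α) × α × α, ψ (p.1 k) (p.1 l) := by
    rw [Fintype.sum_prod_type, Finset.sum_mul]
    apply Finset.sum_congr rfl
    intro g _
    show ψ (g k) (g l) * Fintype.card α ^ 2 = ∑ _y : α × α, ψ (g k) (g l)
    rw [Finset.sum_const, Finset.card_univ, Fintype.card_prod, smul_eq_mul, mul_comm, sq]
  have h2 : Fintype.card α ^ r * ∑ a, ∑ b, ψ a b
      = ∑ p : (Fin r → α) × α × α, ψ p.2.1 p.2.2 := by
    rw [Fintype.sum_prod_type]
    simp only [Fintype.sum_prod_type]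
    show Fintype.card α ^ r * ∑ a, ∑ b, ψ a b = ∑ _x : Fin r → α, ∑ a, ∑ b, ψ a b
    rw [Finset.sum_const, Finset.card_univ, Fintype.card_pi_const, smul_eq_mul]
  rw [h1, h2]
  exact Fintype.sum_equiv he.toPerm _ _ (fun p => rfl)

/-- Exchangeability: among `r + 1` independent uniform samples at most one is the strict
minimum (with respect to an asymmetric relation) of the samples having property `O`. -/
theorem exch_max {α : Type*} [Fintype α] [DecidableEq α] (r : ℕ) (O : α → Prop)
    [DecidablePred O] (lt : α → α → Prop) [DecidableRel lt]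
    (hasym : ∀ a b, lt a b → ¬ lt b a) :
    (r + 1) * ∑ g : Fin r → α, (univ.filter (fun a => O a ∧ ∀ l, O (g l) → lt a (g l))).card
      ≤ Fintype.card α ^ (r + 1) := by
  classical
  set c : ℕ := ∑ g : Fin r → α, (univ.filter (fun a => O a ∧ ∀ l, O (g l) → lt a (g l))).card
    with hc
  -- the event that coordinate k is the strict minimum among the coordinates with property O
  let P : (Fin (r + 1) → α) → Fin (r + 1) → Prop :=
    fun h k => O (h k) ∧ ∀ l, l ≠ k → O (h l) → lt (h k) (h l)
  have hP : ∀ (k : Fin (r + 1)) (a : α) (g : Fin r → α),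
      P (Fin.insertNth k a g) k ↔ (O a ∧ ∀ l, O (g l) → lt a (g l)) := by
    intro k a g
    simp only [P, Fin.insertNth_apply_same]
    constructor
    · rintro ⟨h1, h2⟩
      refine ⟨h1, fun l hl => ?_⟩
      have := h2 (k.succAbove l) (Fin.succAbove_ne k l)
      rw [Fin.insertNth_apply_succAbove] at this
      exact this hl
    · rintro ⟨h1, h2⟩
      refine ⟨h1, fun l hl hO => ?_⟩
      obtain ⟨l', rfl⟩ := Fin.exists_succAbove_eq hl
      rw [Fin.insertNth_apply_succAbove] at hO ⊢
      exact h2 l' hO
  -- each event has the same number of points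
  have hcount : ∀ k : Fin (r + 1), (univ.filter (fun h => P h k)).card = c := by
    intro k
    rw [Finset.card_filter]
    rw [← Fintype.sum_equiv (Fin.insertNthEquiv (fun _ => α) k)
      (fun p : α × (Fin r → α) => if (O p.1 ∧ ∀ l, O (p.2 l) → lt p.1 (p.2 l)) then 1 else 0)
      (fun h => if P h k then 1 else 0)]
    · rw [Fintype.sum_prod_type, Finset.sum_comm, hc]
      apply Finset.sum_congr rfl
      intro g _
      rw [Finset.card_filter]
    · intro p
      obtain ⟨a, g⟩ := p
      have := hP k a g
      show (if (O a ∧ ∀ l, O (g l) → lt a (g l)) then 1 else 0)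
        = if P (Fin.insertNth k a g) k then 1 else 0
      by_cases h : O a ∧ ∀ l, O (g l) → lt a (g l)
      · rw [if_pos h, if_pos (this.2 h)]
      · rw [if_neg h, if_neg (fun h' => h (this.1 h'))]
  -- the events are pairwise disjoint
  have hone : ∀ h : Fin (r + 1) → α, (univ.filter (fun k => P h k)).card ≤ 1 := by
    intro h
    rw [Finset.card_le_one]
    intro k hk l hl
    rw [Finset.mem_filter] at hk hl
    by_contra hkl
    have h1 := hk.2.2 l (fun e => hkl e.symm) hl.2.1
    have h2 := hl.2.2 k hkl hk.2.1
    exact hasym _ _ h1 h2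
  calc (r + 1) * c = ∑ k : Fin (r + 1), (univ.filter (fun h => P h k)).card := by
        rw [Finset.sum_congr rfl (fun k _ => hcount k), Finset.sum_const, Finset.card_univ,
          Fintype.card_fin, smul_eq_mul]
    _ = ∑ h : Fin (r + 1) → α, (univ.filter (fun k => P h k)).card := by
        simp only [Finset.card_filter]
        exact Finset.sum_comm
    _ ≤ ∑ h : Fin (r + 1) → α, 1 := Finset.sum_le_sum (fun h _ => hone h)
    _ = Fintype.card α ^ (r + 1) := by
        rw [Finset.sum_const, Finset.card_univ, Fintype.card_pi_const, smul_eq_mul, mul_one]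

end Vale.Agent.Lib.P037.helper20
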